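import Vale.Agent.P331.H489.Func

/-!
# The functionals of the rule
-/

set_option autoImplicit false
set_option linter.unusedSectionVars false

namespace Vale.Agent.P331.H489

open Finset
open scoped Classical

section

variable {E : Type} [Fintype E] (M : Matroid E) (lt : E → E → Prop)

/-- `z` is spanned by the elements of `P` which are heavier than `z` (`lt z e`: `z` is lighter
than `e`) -/
def cov (z : E) (P : E → Prop) : Prop := z ∈ M.closure {e | lt z e ∧ P e}

/-- the probability that the union of `P` and of a random half of `R` does not cover `z` -/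
noncomputable def miss (z : E) (R P : E → Prop) : ℝ :=
  EX (fun _ _ => 1 / 2) fun s : E → Bool =>
    if cov M lt z (fun e => P e ∨ (R e ∧ s e = true)) then 0 else 1

theorem cov_mono {z : E} {P P' : E → Prop} (h : ∀ e, P e → P' e)
    (hc : cov M lt z P) : cov M lt z P' :=
  M.closure_subset_closure
    (show {e | lt z e ∧ P e} ⊆ {e | lt z e ∧ P' e} from fun _ he => ⟨he.1, h _ he.2⟩) hc

theorem miss_nonneg (z : E) (R P : E → Prop) : 0 ≤ miss M lt z R P :=
  EX_nonneg (fun _ _ => by norm_num) fun _ => by split_ifs <;> norm_num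

theorem miss_le_one (z : E) (R P : E → Prop) : miss M lt z R P ≤ 1 := by
  refine (EX_mono (fun _ _ => by norm_num) (G := fun _ => 1) fun _ => ?_).trans
    (le_of_eq (EX_one _ (fun _ => by rw [sum_bool]; norm_num) 1))
  split_ifs <;> norm_num

theorem miss_anti {z : E} {R R' P P' : E → Prop} (hR : ∀ e, R e → R' e)
    (hP : ∀ e, P e → P' e) : miss M lt z R' P' ≤ miss M lt z R P := by
  refine EX_mono (fun _ _ => by norm_num) fun s => ?_
  by_cases h : cov M lt z (fun e => P e ∨ (R e ∧ s e = true))
  · have h' : cov M lt z (fun e => P' e ∨ (R' e ∧ s e = true)) :=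
      cov_mono M lt (fun e he => he.imp (hP e) fun h2 => And.intro (hR e h2.1) h2.2) h
    rw [if_pos h, if_pos h']
  · rw [if_neg h]
    split_ifs <;> norm_num

theorem miss_eq_zero {z : E} {R P : E → Prop} (h : cov M lt z P) :
    miss M lt z R P = 0 := by
  have h1 : ∀ s : E → Bool, cov M lt z (fun e => P e ∨ (R e ∧ s e = true)) := fun s =>
    cov_mono M lt (fun e he => Or.inl he) h
  unfold miss
  simp only [if_pos (h1 _)]
  simp [EX]

theorem miss_eq_one {z : E} {R P : E → Prop} (h : z ∉ M.closure {e | lt z e}) :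
    miss M lt z R P = 1 := by
  have h1 : ∀ s : E → Bool, ¬ cov M lt z (fun e => P e ∨ (R e ∧ s e = true)) := fun s hc =>
    h (M.closure_subset_closure
      (show {e | lt z e ∧ (P e ∨ (R e ∧ s e = true))} ⊆ {e | lt z e} from fun _ he => he.1) hc)
  unfold miss
  simp only [if_neg (h1 _)]
  exact EX_one _ (fun _ => by rw [sum_bool]; norm_num) 1

end

/-- labels for one level: test set, pool, sample, fixed pools, others -/
inductive C5 | v | g | r | d | o
  deriving DecidableEq

instance : Fintype C5 := ⟨{.v, .g, .r, .d, .o}, by intro x; cases x <;> decide⟩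

theorem sum_C5 (f : C5 → ℝ) : ∑ l, f l = f .v + f .g + f .r + f .d + f .o := by
  have h : (univ : Finset C5) = {.v, .g, .r, .d, .o} := rfl
  rw [h, sum_insert (by decide), sum_insert (by decide), sum_insert (by decide),
    sum_insert (by decide), sum_singleton]
  ring

/-- weights: `p` for the test set, `lam * p` for the pool, `1/2` for the sample, `q` for the
fixed pools, the rest for the others -/
noncomputable def w5 (p lam q : ℝ) : C5 → ℝ
  | .v => p
  | .g => lam * p
  | .r => 1 / 2
  | .d => q
  | .o => 1 / 2 - p - lam * p - q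

section

variable {E : Type} [Fintype E] (M : Matroid E) (lt : E → E → Prop)

/-- `b` is blamed by `z` at one level, with a set of size `x` and luck at least `ρ` -/
def Ev1 (b z : E) (x ρ : ℕ) (κ : E → C5) : Prop :=
  κ b = .v ∧ κ z = .v ∧ ∃ X : Finset E, b ∈ X ∧ X.card = x ∧ (∀ e ∈ X, κ e = .v ∧ lt z e) ∧
    miss M lt z (fun e => κ e = .r) (fun e => κ e = .d ∨ e ∈ X) ≤ 1 / (2 * ((x : ℝ) + 1)) ∧
    1 / (2 * (x : ℝ)) < miss M lt z (fun e => κ e = .r) (fun e => κ e = .d ∨ e ∈ X.erase b) ∧
    ∀ U ⊆ X, U.card < ρ → 1 / (2 * ((U.card : ℝ) + 1)) <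
      miss M lt z (fun e => κ e = .r) (fun e => κ e = .d ∨ κ e = .g ∨ e ∈ U)

/-- `b` is in a real circuit of the test set with lightest element `z`, which is lucky -/
def Ev2 (b z : E) (Λ : ℕ) (κ : E → C5) : Prop :=
  κ b = .v ∧ κ z = .v ∧ 1 / 2 < miss M lt z (fun e => κ e = .r) (fun _ => False) ∧
    ∃ X : Finset E, b ∈ X ∧ (∀ e ∈ X, κ e = .v ∧ lt z e) ∧ cov M lt z (fun e => e ∈ X) ∧
    ∀ U ⊆ X, cov M lt z (fun e => κ e = .g ∨ e ∈ U) → Λ ≤ U.card

end

end Vale.Agent.P331.H489
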