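import Mathlib

/-!
# Sums over independent labels
-/

set_option autoImplicit false
set_option linter.unusedSectionVars false

namespace Vale.Agent.P331.H489

open Finset

section

variable {E L C : Type*} [Fintype E] [DecidableEq E] [Fintype L] [DecidableEq L]
  [Fintype C] [DecidableEq C]

/-- the sum of `F` over all labellings, weighted with product weights -/
def EX (w : E → L → ℝ) (F : (E → L) → ℝ) : ℝ := ∑ ω : E → L, (∏ e, w e (ω e)) * F ω

theorem EX_mono {w : E → L → ℝ} (hw : ∀ e l, 0 ≤ w e l) {F G : (E → L) → ℝ}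
    (h : ∀ ω, F ω ≤ G ω) : EX w F ≤ EX w G :=
  sum_le_sum fun ω _ => mul_le_mul_of_nonneg_left (h ω) (prod_nonneg fun e _ => hw e _)

theorem EX_nonneg {w : E → L → ℝ} (hw : ∀ e l, 0 ≤ w e l) {F : (E → L) → ℝ}
    (h : ∀ ω, 0 ≤ F ω) : 0 ≤ EX w F :=
  sum_nonneg fun ω _ => mul_nonneg (prod_nonneg fun e _ => hw e _) (h ω)

theorem EX_add (w : E → L → ℝ) (F G : (E → L) → ℝ) :
    EX w (fun ω => F ω + G ω) = EX w F + EX w G := by
  simp only [EX, mul_add, sum_add_distrib]

theorem EX_sub (w : E → L → ℝ) (F G : (E → L) → ℝ) :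
    EX w (fun ω => F ω - G ω) = EX w F - EX w G := by
  simp only [EX, mul_sub, sum_sub_distrib]

theorem EX_mul (w : E → L → ℝ) (c : ℝ) (F : (E → L) → ℝ) :
    EX w (fun ω => c * F ω) = c * EX w F := by
  simp only [EX, mul_sum]
  exact sum_congr rfl fun ω _ => by ring

theorem EX_sum {ι : Type*} (s : Finset ι) (w : E → L → ℝ) (F : ι → (E → L) → ℝ) :
    EX w (fun ω => ∑ i ∈ s, F i ω) = ∑ i ∈ s, EX w (F i) := by
  simp only [EX, mul_sum]
  rw [sum_comm]

theorem EX_const (w : E → L → ℝ) (c : ℝ) :
    EX w (fun _ => c) = (∏ e, ∑ l, w e l) * c := by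
  rw [EX, ← sum_mul, Finset.prod_univ_sum, Fintype.piFinset_univ]

theorem EX_one (w : E → L → ℝ) (h : ∀ e, ∑ l, w e l = 1) (c : ℝ) : EX w (fun _ => c) = c := by
  rw [EX_const, prod_congr rfl fun e _ => h e]
  simp

/-- pushing labels forward -/
theorem EX_push (f : L → C) (w : E → L → ℝ) (F : (E → C) → ℝ) :
    EX w (fun ω => F (f ∘ ω)) = EX (fun e c => ∑ l with f l = c, w e l) F := by
  unfold EX
  have h : ∀ κ : E → C, (∏ e, ∑ l with f l = κ e, w e l) =
      ∑ ω : E → L with f ∘ ω = κ, ∏ e, w e (ω e) := by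
    intro κ
    rw [Finset.prod_univ_sum]
    refine sum_congr ?_ fun _ _ => rfl
    ext ω
    simp only [Fintype.mem_piFinset, mem_filter, mem_univ, true_and]
    exact funext_iff.symm
  simp only [h, sum_mul]
  rw [← sum_fiberwise_of_maps_to (s := univ) (t := univ) (g := fun ω : E → L => f ∘ ω)
    (fun _ _ => mem_univ _)]
  refine sum_congr rfl fun κ _ => sum_congr rfl fun ω hω => ?_
  rw [(mem_filter.1 hω).2]

/-- splitting off one coordinate -/
theorem EX_split (e : E) (l₁ : L) (w : E → L → ℝ) (F : (E → L) → ℝ) :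
    EX w F = ∑ l, w e l * EX (Function.update w e (Pi.single l₁ 1))
      (fun ω => F (Function.update ω e l)) := by
  unfold EX
  rw [← sum_fiberwise_of_maps_to (s := univ) (t := univ) (g := fun ω : E → L => ω e)
    (fun _ _ => mem_univ _)]
  refine sum_congr rfl fun l _ => ?_
  have h1 : ∑ ω : E → L, (∏ a, Function.update w e (Pi.single l₁ 1) a (ω a)) *
      F (Function.update ω e l) = ∑ ω : E → L with ω e = l₁,
      (∏ a ∈ univ.erase e, w a (ω a)) * F (Function.update ω e l) := by
    rw [sum_filter]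
    refine sum_congr rfl fun ω _ => ?_
    rw [← mul_prod_erase univ _ (mem_univ e), Function.update_self]
    by_cases h : ω e = l₁
    · rw [if_pos h, h, Pi.single_eq_same, one_mul]
      congr 1
      refine prod_congr rfl fun a ha => ?_
      rw [Function.update_of_ne (ne_of_mem_erase ha)]
    · rw [if_neg h, Pi.single_eq_of_ne h, zero_mul, zero_mul]
  rw [h1, mul_sum]
  refine sum_nbij' (fun ω => Function.update ω e l₁) (fun ω => Function.update ω e l)
    ?_ ?_ ?_ ?_ ?_
  · intro ω _
    simp
  · intro ω _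
    simp
  · intro ω hω
    simp only [mem_filter, mem_univ, true_and] at hω
    rw [Function.update_idem, ← hω, Function.update_eq_self]
  · intro ω hω
    simp only [mem_filter, mem_univ, true_and] at hω
    rw [Function.update_idem, ← hω, Function.update_eq_self]
  · intro ω hω
    simp only [mem_filter, mem_univ, true_and] at hω
    rw [Function.update_idem]
    have h2 : Function.update ω e l = ω := by rw [← hω, Function.update_eq_self]
    rw [h2, ← mul_prod_erase univ (fun a => w a (ω a)) (mem_univ e), hω, mul_assoc]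
    congr 2
    refine prod_congr rfl fun a ha => ?_
    rw [Function.update_of_ne (ne_of_mem_erase ha)]

/-- conditioning on one coordinate -/
theorem EX_cond (e : E) (l₀ l₁ : L) (w : E → L → ℝ) (F : (E → L) → ℝ) :
    EX w (fun ω => if ω e = l₀ then F ω else 0) =
      w e l₀ * EX (Function.update w e (Pi.single l₁ 1))
        (fun ω => F (Function.update ω e l₀)) := by
  rw [EX_split e l₁, sum_eq_single l₀]
  · congr 2
    funext ω
    rw [Function.update_self, if_pos rfl]
  · intro l _ hl
    have : (fun ω : E → L => if Function.update ω e l e = l₀ then F (Function.update ω e l)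
        else 0) = fun _ => (0 : ℝ) := by
      funext ω
      rw [Function.update_self, if_neg hl]
    rw [this]
    simp [EX]
  · intro h
    exact absurd (mem_univ _) h

/-- renaming the coordinates -/
theorem EX_reindex {E' : Type*} [Fintype E'] [DecidableEq E'] (σ : E ≃ E') (w : E → L → ℝ)
    (F : (E → L) → ℝ) :
    EX w F = EX (fun e' => w (σ.symm e')) (fun ω : E' → L => F (ω ∘ σ)) := by
  unfold EX
  refine Fintype.sum_equiv (Equiv.arrowCongr σ (Equiv.refl L)) _ _ fun ω => ?_
  have h1 : (Equiv.arrowCongr σ (Equiv.refl L)) ω = ω ∘ σ.symm := rfl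
  rw [h1]
  congr 1
  · rw [← Equiv.prod_comp σ]
    refine prod_congr rfl fun e _ => ?_
    simp
  · congr 1
    funext e
    simp

/-- two independent coordinates of the label -/
theorem EX_prod (w : E → L → ℝ) (u : E → C → ℝ) (F : (E → L) → (E → C) → ℝ) :
    EX (fun e (x : L × C) => w e x.1 * u e x.2)
      (fun τ => F (fun e => (τ e).1) (fun e => (τ e).2)) =
      EX w fun μ => EX u fun σ => F μ σ := by
  unfold EX
  simp only [mul_sum]
  rw [← sum_product']
  refine Fintype.sum_equiv (Equiv.arrowProdEquivProdArrow E (fun _ => L) (fun _ => C)) _ _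
    fun τ => ?_
  rw [prod_mul_distrib]
  simp only [Equiv.arrowProdEquivProdArrow]
  simp [mul_assoc]

/-- first coordinate -/
theorem EX_cons {n : ℕ} (w : Fin (n + 1) → L → ℝ) (F : (Fin (n + 1) → L) → ℝ) :
    EX w F = ∑ l, w 0 l * EX (fun i : Fin n => w i.succ) (fun ω => F (Fin.cons l ω)) := by
  unfold EX
  rw [← (Fin.consEquiv fun _ : Fin (n + 1) => L).sum_comp, Fintype.sum_prod_type]
  refine sum_congr rfl fun l _ => ?_
  rw [mul_sum]
  refine sum_congr rfl fun ω _ => ?_
  rw [Fin.prod_univ_succ]
  simp [Fin.consEquiv, mul_assoc]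

end

end Vale.Agent.P331.H489
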