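import Vale.Agent.P331.H489.Core

/-!
# Statements used by the rows of the proof
-/

set_option autoImplicit false
set_option linter.unusedSectionVars false

namespace Vale.Agent.P331.H489

open Finset
open scoped Classical

section

variable {E : Type} [Fintype E] (M : Matroid E) (lt : E → E → Prop)

/-- `b` is pivotal for `z` in the set of the `t`- and `d`-labels -/
noncomputable def phi (b z : E) (ν : E → N3) : ℝ :=
  if cov M lt z (fun e => ν e = .d ∨ ν e = .t ∨ e = b) ∧
    ¬ cov M lt z (fun e => ν e = .d ∨ ν e = .t) then 1 else 0

/-- some context of at most `x - 1` elements with label `w` makes `b` pivotal for `z` with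
probability at least `δ` -/
def Rel (b z : E) (x : ℕ) (δ : ℝ) (μ : E → Q) : Prop :=
  ∃ y : E → Bool, (univ.filter fun e => y e = true).card ≤ x - 1 ∧
    δ ≤ EX (fun _ _ => 1 / 2) (fun s : E → Bool => phi M lt b z fun e => mix (μ e) (y e) (s e))

/-- weights of the merged labels, with `b` and `z` forced to have the label `o` -/
noncomputable def w4 (p lam q : ℝ) (b z : E) (e : E) : Q → ℝ
  | .w => if e = b ∨ e = z then 0 else (1 + lam) * p
  | .r => if e = b ∨ e = z then 0 else 1 / 2
  | .d => if e = b ∨ e = z then 0 else q
  | .o => if e = b ∨ e = z then 1 else 1 / 2 - p - lam * p - q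

end

end Vale.Agent.P331.H489
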