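import Vale.Agent.P331.H489.Rule
import Vale.Agent.P331.H489.Rows

/-!
# Merging labels and the two events
-/

set_option autoImplicit false
set_option linter.unusedSectionVars false

namespace Vale.Agent.P331.H489

open Finset Vale.Agent.P331 Vale.Agent.P331.H819
open scoped Classical ENNReal

/-- the role of the pool `j` at level `k` -/
def pc (k j : ℕ) : C5 := if k ≤ j then .d else if j + 1 = k then .g else .o

/-- the role of a label at level `k` -/
def cl {K : ℕ} (k : ℕ) : Lab K → C5 := Sum.elim ![C5.v, C5.r, C5.o] fun j => pc k j.val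

theorem pc_v {k j : ℕ} : pc k j ≠ .v := by unfold pc; split_ifs <;> simp

theorem pc_r {k j : ℕ} : pc k j ≠ .r := by unfold pc; split_ifs <;> simp

theorem pc_d {k j : ℕ} : pc k j = .d ↔ k ≤ j := by
  unfold pc; split_ifs with h1 h2 <;> simp [h1]

theorem pc_g {k j : ℕ} : pc k j = .g ↔ j + 1 = k := by
  unfold pc; split_ifs with h1 h2
  · simp; omega
  · simp [h2]
  · simp [h2]

theorem pc_o {k j : ℕ} : pc k j = .o ↔ j + 1 < k := by
  unfold pc; split_ifs with h1 h2
  · simp; omega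
  · simp; omega
  · simp; omega

theorem cl_v {K k : ℕ} {l : Lab K} : cl k l = .v ↔ l = Sum.inl 0 := by
  rcases l with i | j
  · fin_cases i <;> simp [cl]
  · simp [cl, pc_v]

theorem cl_r {K k : ℕ} {l : Lab K} : cl k l = .r ↔ l = Sum.inl 1 := by
  rcases l with i | j
  · fin_cases i <;> simp [cl]
  · simp [cl, pc_r]

theorem cl_d {K k : ℕ} {l : Lab K} : cl k l = .d ↔ ∃ j : Fin K, l = Sum.inr j ∧ k ≤ j.val := by
  rcases l with i | j
  · fin_cases i <;> simp [cl]
  · simp [cl, pc_d]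

theorem cl_g {K k : ℕ} {l : Lab K} :
    cl k l = .g ↔ ∃ j : Fin K, l = Sum.inr j ∧ j.val + 1 = k := by
  rcases l with i | j
  · fin_cases i <;> simp [cl]
  · simp [cl, pc_g]

theorem cl_dg {K k : ℕ} (hk : 1 ≤ k) {l : Lab K} {q : Prop} : (cl k l = .d ∨ cl k l = .g ∨ q) ↔
    ((∃ j : Fin K, l = Sum.inr j ∧ k - 1 ≤ j.val) ∨ q) := by
  rw [← or_assoc]
  refine or_congr ?_ Iff.rfl
  rw [cl_d, cl_g]
  constructor
  · rintro (⟨j, h1, h2⟩ | ⟨j, h1, h2⟩)
    · exact ⟨j, h1, by omega⟩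
    · exact ⟨j, h1, by omega⟩
  · rintro ⟨j, h1, h2⟩
    rcases Nat.lt_or_ge j.val k with h | h
    · exact Or.inr ⟨j, h1, by omega⟩
    · exact Or.inl ⟨j, h1, h⟩

/-- the merged weights -/
theorem push_w {K k : ℕ} (hk : 1 ≤ k) (hkK : k ≤ K) (p lam : ℝ) (c : C5) :
    ∑ l with cl k l = c, wL K p lam l = w5 p lam (((K : ℝ) - k) * (lam * p)) c := by
  have hd : ∑ j : Fin K, (if pc k j.val = .d then lam * p else 0) =
      ((K : ℝ) - k) * (lam * p) := by
    rw [Fin.sum_univ_eq_sum_range (fun j => if pc k j = .d then lam * p else 0) K, ← sum_filter,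
      sum_const, nsmul_eq_mul]
    have : ((range K).filter fun j => pc k j = .d) = Ico k K := by
      ext j
      rw [mem_filter, mem_range, mem_Ico, pc_d]
      tauto
    rw [this, Nat.card_Ico, Nat.cast_sub hkK]
  have hg : ∑ j : Fin K, (if pc k j.val = .g then lam * p else 0) = lam * p := by
    rw [Fin.sum_univ_eq_sum_range (fun j => if pc k j = .g then lam * p else 0) K, ← sum_filter,
      sum_const, nsmul_eq_mul]
    have : ((range K).filter fun j => pc k j = .g) = {k - 1} := by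
      ext j
      rw [mem_filter, mem_range, mem_singleton, pc_g]
      omega
    rw [this, card_singleton, Nat.cast_one, one_mul]
  have ho : ∑ j : Fin K, (if pc k j.val = .o then lam * p else 0) = ((k : ℝ) - 1) * (lam * p) := by
    rw [Fin.sum_univ_eq_sum_range (fun j => if pc k j = .o then lam * p else 0) K, ← sum_filter,
      sum_const, nsmul_eq_mul]
    have : ((range K).filter fun j => pc k j = .o) = range (k - 1) := by
      ext j
      rw [mem_filter, mem_range, mem_range, pc_o]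
      omega
    rw [this, card_range, Nat.cast_sub hk, Nat.cast_one]
  rw [sum_filter, Fintype.sum_sum_type, Fin.sum_univ_three]
  cases c with
  | v => simp [cl, wL, w5, pc_v]
  | g =>
    have : ∑ j : Fin K, (if cl k (Sum.inr j) = .g then wL K p lam (Sum.inr j) else 0) =
      lam * p := hg
    rw [this]
    simp [cl, w5]
  | r => simp [cl, wL, w5, pc_r]
  | d =>
    have : ∑ j : Fin K, (if cl k (Sum.inr j) = .d then wL K p lam (Sum.inr j) else 0) =
      ((K : ℝ) - k) * (lam * p) := hd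
    rw [this]
    simp [cl, w5]
  | o =>
    have : ∑ j : Fin K, (if cl k (Sum.inr j) = .o then wL K p lam (Sum.inr j) else 0) =
      ((k : ℝ) - 1) * (lam * p) := ho
    rw [this]
    simp [cl, w5, wL]
    ring

section

variable {E : Type} [Fintype E] {M : Matroid E}

/-- pushing forward to one level -/
theorem EX_level {K k : ℕ} (hk : 1 ≤ k) (hkK : k ≤ K) (p lam : ℝ) (F : (E → C5) → ℝ) :
    EX (fun _ => wL K p lam) (fun ω : E → Lab K => F (fun e => cl k (ω e))) =
      EX (fun _ => w5 p lam (((K : ℝ) - k) * (lam * p))) F := by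
  have h := EX_push (cl k : Lab K → C5) (fun _ : E => wL K p lam) F
  refine h.trans ?_
  congr 1
  funext e c
  exact push_w hk hkK p lam c

theorem bad_ev1 {K k : ℕ} {ω : E → Lab K} {lt : E → E → Prop} {b z : E} (hk : 1 ≤ k)
    {X : Finset E} (hz : ω z = Sum.inl 0) (hbX : b ∈ X) (hX : ∀ e ∈ X, ω e = Sum.inl 0 ∧ lt z e)
    (hbad : Bad M k ω lt z X) :
    Ev1 M lt b z X.card (1 + sig K X.card) (fun e => cl k (ω e)) := by
  obtain ⟨h1, h2, h3⟩ := hbad
  unfold Ev1
  simp only [cl_v, cl_r, cl_dg hk]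
  simp only [cl_d]
  refine ⟨(hX b hbX).1, hz, X, hbX, rfl, hX, h1, ?_, ?_⟩
  · have h4 := h2 (X.erase b) (erase_ssubset hbX)
    unfold vio at h4
    rw [not_le] at h4
    have h5 : (((X.erase b).card : ℕ) : ℝ) + 1 = X.card := by
      rw [← Nat.cast_succ, Nat.succ_eq_add_one, card_erase_add_one hbX]
    rw [h5] at h4
    exact h4
  · intro U hU hc
    have h4 := h3 U hU hc
    unfold vio at h4
    rw [not_le] at h4
    exact h4


/-- the second alternative: `b` closes a circuit of test elements without any bad configuration -/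
def Second (M : Matroid E) {K : ℕ} (ω : E → Lab K) (lt : E → E → Prop) (b z : E) : Prop :=
  ∃ X : Finset E, ω z = Sum.inl 0 ∧ b ∈ X ∧
      (∀ e ∈ X, ω e = Sum.inl 0 ∧ lt z e) ∧ cov M lt z (fun e => e ∈ X) ∧
      M.IsCircuit (insert z (X : Set E)) ∧ ¬ vio M 0 ω lt z ∅ ∧
      ∀ k, 1 ≤ k → k ≤ K → ∀ X' ⊆ X, ¬ Bad M k ω lt z X'

theorem unsafe_ev {K : ℕ} {p lam : ℝ} {hp : 0 ≤ p} {hlam : 0 ≤ lam}
    {hs : p + K * (lam * p) ≤ 1 / 2} (hM : M.E = Set.univ) {lt : E → E → Prop}
    (hlt : IsStrictTotalOrder E lt) {b : E} (hb : b ∉ M.closure {f | lt b f}) {ω : E → Lab K}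
    (hbT : ω b = Sum.inl 0) (hns : ¬ (data M K p lam hp hlam hs).Safe ω lt b) :
    (∃ k ∈ Icc 1 K, ∃ x ∈ Icc 1 (Fintype.card E), ∃ z ∈ univ.erase b,
      Ev1 M lt b z x (1 + sig K x) (fun e => cl k (ω e))) ∨
    ∃ z ∈ univ.erase b, Second M ω lt b z := by
  unfold Data.Safe at hns
  push Not at hns
  obtain ⟨B, hB, hLB, hn⟩ := hns
  rcases unsafe_cases hM hlt hb (B := B) (fun f hf => hB f hf) hLB hn hbT with
    ⟨z, hzb, k, hk, hkK, X, hz, hbX, hX, hbad⟩ | ⟨z, hzb, X, h⟩
  · left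
    exact ⟨k, mem_Icc.2 ⟨hk, hkK⟩, X.card, mem_Icc.2 ⟨card_pos.2 ⟨b, hbX⟩, card_le_univ X⟩, z,
      mem_erase.2 ⟨hzb, mem_univ z⟩, bad_ev1 hk hz hbX hX hbad⟩
  · right
    exact ⟨z, mem_erase.2 ⟨hzb, mem_univ z⟩, X, h⟩

end

end Vale.Agent.P331.H489
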