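import Mathlib

/-!
# Growth of the descending chain
-/

set_option autoImplicit false

namespace Vale.Agent.P331.H489

theorem sq_le_two_pow (n : ℕ) (hn : 4 ≤ n) : n * n ≤ 2 ^ n := by
  induction n, hn using Nat.le_induction with
  | base => norm_num
  | succ n hn ih =>
    rw [pow_succ]
    nlinarith

theorem four_mul_le_two_pow (n : ℕ) (hn : 9 ≤ n) : 4 * n ≤ 2 ^ (n - 1) := by
  obtain ⟨k, rfl⟩ : ∃ k, n = k + 1 := ⟨n - 1, by omega⟩
  rw [Nat.add_sub_cancel]
  have hk : 8 ≤ k := by omega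
  clear hn
  induction k, hk using Nat.le_induction with
  | base => norm_num
  | succ k hk ih =>
    rw [pow_succ]
    omega

theorem step_small {m x y a : ℕ} (hm : 16 ≤ m) (h : y ≤ Nat.clog 2 x + x / (2 * m)) (ha : a ≤ y)
    (ha1 : 1 ≤ a) (ha5 : a ≤ 5) : 2 ^ (a - 1) + 1 ≤ x := by
  rcases Nat.lt_or_ge x (2 * m) with hx | hx
  · rw [Nat.div_eq_of_lt hx, add_zero] at h
    have h1 : a - 1 < Nat.clog 2 x := by omega
    exact (Nat.lt_clog_iff_pow_lt one_lt_two).1 h1
  · have : 2 ^ (a - 1) ≤ 2 ^ 4 := Nat.pow_le_pow_right two_pos (by omega)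
    omega

theorem step_cases {m x y : ℕ} (h : y ≤ Nat.clog 2 x + x / (2 * m)) (hy : 1 ≤ y) :
    m * y ≤ x ∨ 2 ^ ((y + 1) / 2 - 1) < x := by
  rcases Nat.lt_or_ge (2 * Nat.clog 2 x) y with h1 | h1
  · left
    have h2 : y ≤ 2 * (x / (2 * m)) := by omega
    calc m * y ≤ m * (2 * (x / (2 * m))) := Nat.mul_le_mul_left _ h2
      _ = (x / (2 * m)) * (2 * m) := by ring
      _ ≤ x := Nat.div_mul_le_self _ _
  · right
    refine (Nat.lt_clog_iff_pow_lt one_lt_two).1 ?_
    omega

theorem step_double {m x y : ℕ} (hm : 16 ≤ m) (h : y ≤ Nat.clog 2 x + x / (2 * m))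
    (hy : 17 ≤ y) : 2 * y ≤ x := by
  rcases step_cases h (by omega) with h1 | h1
  · nlinarith
  · have h2 := four_mul_le_two_pow ((y + 1) / 2) (by omega)
    omega

theorem step_mul {m x y : ℕ} (hm : 16 ≤ m) (h : y ≤ Nat.clog 2 x + x / (2 * m))
    (hy : 8 * m ≤ y) : m * y ≤ x := by
  rcases step_cases h (by omega) with h1 | h1
  · exact h1
  · set n := (y + 1) / 2 with hn
    have h2 := sq_le_two_pow n (by omega)
    have h3 : 2 ^ n = 2 * 2 ^ (n - 1) := by
      rw [← pow_succ']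
      congr 1
      omega
    have h4 : 4 * m ≤ n := by omega
    have h5 : y ≤ 2 * n := by omega
    have h6 : m * y ≤ m * (2 * n) := Nat.mul_le_mul_left _ h5
    have h7 : 4 * m * n ≤ n * n := Nat.mul_le_mul_right _ h4
    nlinarith

theorem num_chain (m : ℕ) (hm : 16 ≤ m) (u : ℕ → ℕ)
    (hu : ∀ j < 2 * m - 1, u j ≤ Nat.clog 2 (u (j + 1)) + u (j + 1) / (2 * m)) (h0 : 1 ≤ u 0) :
    m ^ m < u (2 * m - 1) := by
  have h1 : 2 ≤ u 1 := step_small hm (hu 0 (by omega)) h0 le_rfl (by norm_num)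
  have h2 : 3 ≤ u 2 := step_small hm (hu 1 (by omega)) h1 (by norm_num) (by norm_num)
  have h3 : 5 ≤ u 3 := step_small hm (hu 2 (by omega)) h2 (by norm_num) (by norm_num)
  have h4 : 17 ≤ u 4 := step_small hm (hu 3 (by omega)) h3 (by norm_num) (by norm_num)
  have hlog : Nat.clog 2 m + 5 ≤ m := by
    have : ∀ n : ℕ, 16 ≤ n → n ≤ 2 ^ (n - 5) := by
      intro n hn
      induction n, hn using Nat.le_induction with
      | base => norm_num
      | succ n hn ih =>
        have : 2 ^ (n + 1 - 5) = 2 * 2 ^ (n - 5) := by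
          rw [← pow_succ']
          congr 1
          omega
        omega
    have h5 := Nat.clog_le_of_le_pow (this m hm)
    omega
  have h5 : ∀ i, i + 4 ≤ 2 * m - 1 → 17 * 2 ^ i ≤ u (4 + i) := by
    intro i
    induction i with
    | zero => intro _; simpa using h4
    | succ i ih =>
      intro hi
      have h6 := ih (by omega)
      have h7 : 1 ≤ 2 ^ i := Nat.one_le_two_pow
      have h8 := step_double hm (hu (4 + i) (by omega)) (by omega)
      rw [pow_succ]
      have h9 : 4 + (i + 1) = 4 + i + 1 := by omega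
      rw [h9]
      omega
  set L := Nat.clog 2 m with hL
  have h6 : 17 * m ≤ u (4 + L) := by
    refine le_trans ?_ (h5 L (by omega))
    exact Nat.mul_le_mul_left _ (Nat.le_pow_clog one_lt_two m)
  have h7 : ∀ i, 4 + L + i ≤ 2 * m - 1 → 17 * m ^ (i + 1) ≤ u (4 + L + i) := by
    intro i
    induction i with
    | zero => intro _; simpa using h6
    | succ i ih =>
      intro hi
      have h8 := ih (by omega)
      have h9 : m ≤ m ^ (i + 1) := Nat.le_self_pow (by omega) m
      have h10 := step_mul hm (hu (4 + L + i) (by omega)) (by omega)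
      have h11 : 4 + L + (i + 1) = 4 + L + i + 1 := by omega
      rw [h11]
      refine le_trans ?_ h10
      calc 17 * m ^ (i + 1 + 1) = m * (17 * m ^ (i + 1)) := by ring
        _ ≤ m * u (4 + L + i) := Nat.mul_le_mul_left _ h8
  obtain ⟨i, hi⟩ : ∃ i, 2 * m - 1 = 4 + L + i := ⟨2 * m - 1 - (4 + L), by omega⟩
  have h8 := h7 i (by omega)
  rw [hi]
  refine lt_of_lt_of_le ?_ h8
  have h9 : m ^ m ≤ m ^ (i + 1) := Nat.pow_le_pow_right (by omega) (by omega)
  have h10 : 0 < m ^ (i + 1) := Nat.pow_pos (by omega)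
  omega

end Vale.Agent.P331.H489
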