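import Vale.Agent.P331.H489.Main
import Vale.Agent.P331.H489.Chain
import Vale.Agent.P331.H218.Ev2Sum
import Vale.Agent.P331.H705.E1

/-!
# The final bound
-/

set_option autoImplicit false
set_option linter.unusedSectionVars false

namespace Vale.Agent.P331.H489

open Finset Vale.Agent.P331 Vale.Agent.P331.H819
open scoped Classical ENNReal

section

variable {E : Type} [Fintype E] {M : Matroid E}

theorem second_chain {m : ℕ} (hm : 16 ≤ m) {ω : E → Lab (2 * m)} {lt : E → E → Prop} {z : E}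
    {X : Finset E} (h0 : ¬ vio M 0 ω lt z ∅)
    (hX : ∀ k, 1 ≤ k → k ≤ 2 * m → ∀ X' ⊆ X, ¬ Bad M k ω lt z X') (U : Finset E) (hU : U ⊆ X)
    (hv : vio M (2 * m - 1) ω lt z U) : m ^ m < U.card := by
  obtain ⟨u, h1, h2, h3⟩ := chain h0 hX (2 * m - 1) (by omega) U hU hv
  exact (num_chain m hm u h1 h2).trans_le h3

theorem second_ev2 {m : ℕ} (hm : 16 ≤ m) {ω : E → Lab (2 * m)} {lt : E → E → Prop} {b z : E}
    (h : Second M ω lt b z) : Ev2 M lt b z (m ^ m + 1) (fun e => cl (2 * m) (ω e)) := by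
  obtain ⟨X, hz, hbX, hX, hcov, -, h0, hbad⟩ := h
  unfold Ev2
  simp only [cl_v, cl_r, cl_g]
  refine ⟨(hX b hbX).1, hz, ?_, X, hbX, hX, hcov, fun U hU hc => ?_⟩
  · have h2 := h0
    unfold vio at h2
    rw [not_le] at h2
    have h1 : (1 : ℝ) / (2 * (((∅ : Finset E).card : ℝ) + 1)) = 1 / 2 := by simp
    rw [h1] at h2
    exact h2.trans_le (miss_anti M lt (fun e he => he) (fun e he => he.elim))
  · refine Nat.succ_le_of_lt (second_chain hm h0 hbad U hU ?_)
    unfold vio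
    rw [miss_eq_zero]
    · positivity
    · exact cov_mono M lt (fun e he => he.imp (fun ⟨j, h1, h2⟩ => ⟨j, h1, by omega⟩) id) hc

theorem second_circ {m : ℕ} (hm : 16 ≤ m) {ω : E → Lab (2 * m)} {lt : E → E → Prop} {b z : E}
    (h : Second M ω lt b z) : ∃ C, M.IsCircuit C ∧ ((m ^ m : ℕ) : ℕ∞) < C.encard := by
  obtain ⟨X, hz, hbX, hX, hcov, hC, h0, hbad⟩ := h
  refine ⟨_, hC, ?_⟩
  have h1 : m ^ m < X.card := by
    refine second_chain hm h0 hbad X subset_rfl ?_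
    unfold vio
    rw [miss_eq_zero]
    · positivity
    · exact cov_mono M lt (fun e he => Or.inr he) hcov
  calc ((m ^ m : ℕ) : ℕ∞) < (X.card : ℕ∞) := by exact_mod_cast h1
    _ = (X : Set E).encard := (Set.encard_coe_eq_coe_finsetCard X).symm
    _ ≤ (insert z (X : Set E)).encard := Set.encard_le_encard (Set.subset_insert _ _)

/-- the numbers -/
theorem m_pos {m : ℕ} (hm : 16 ≤ m) : (16 : ℝ) ≤ m := by exact_mod_cast hm

theorem p_nonneg (m : ℕ) : (0 : ℝ) ≤ 1 / (2000 * m) := by positivity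

theorem p_hs {m : ℕ} (hm : 16 ≤ m) :
    (1 : ℝ) / (2000 * m) + ((2 * m : ℕ) : ℝ) * (64 * (1 / (2000 * m))) ≤ 1 / 2 := by
  have h := m_pos hm
  push_cast
  have h1 : (2 * (m : ℝ)) * (64 * (1 / (2000 * m))) = 128 / 2000 := by
    field_simp
    norm_num
  have h2 : (1 : ℝ) / (2000 * m) ≤ 1 / 32000 :=
    one_div_le_one_div_of_le (by norm_num) (by linarith)
  rw [h1]
  linarith

/-- The rule is good if the second alternative is rare. -/
theorem good_bound {m : ℕ} (hm : 16 ≤ m) (hM : M.E = Set.univ) {lt : E → E → Prop}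
    (hlt : IsStrictTotalOrder E lt) {b : E} (hb : b ∉ M.closure {f | lt b f})
    (h2 : EX (fun _ => wL (2 * m) (1 / (2000 * m)) 64) (fun ω : E → Lab (2 * m) =>
      if SecE M lt b ω then 1 else 0) ≤ (1 / (2000 * m)) / 10) :
    1 / (4000 * m) ≤ EX (fun _ => wL (2 * m) (1 / (2000 * m)) 64) (fun ω : E → Lab (2 * m) =>
        if Good (p_nonneg m) (by norm_num : (0 : ℝ) ≤ 64) (p_hs hm) M lt b ω then 1 else 0) := by
  have hm0 := m_pos hm
  have h1 := main_ineq (K := 2 * m) (p_nonneg m) (by norm_num : (0 : ℝ) ≤ 64) (p_hs hm) hM hlt hb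
  set p : ℝ := 1 / (2000 * m) with hp
  have hpm : (m : ℝ) * p = 1 / 2000 := by
    rw [hp]
    field_simp
  have h3 : ∀ k ∈ Icc 1 (2 * m), ∑ x ∈ Icc 1 (Fintype.card E), ∑ z ∈ univ.erase b,
        EX (fun _ => w5 p 64 ((((2 * m : ℕ) : ℝ) - k) * (64 * p)))
          (fun κ : E → C5 => if Ev1 M lt b z x (1 + sig (2 * m) x) κ then 1 else 0) ≤
          400 * p ^ 2 := by
    intro k hk
    rw [mem_Icc] at hk
    have hk1 : (1 : ℝ) ≤ k := by exact_mod_cast hk.1
    have hk2 : (k : ℝ) ≤ ((2 * m : ℕ) : ℝ) := by exact_mod_cast hk.2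
    refine H705.e1_bound M lt hM (2 * m) (by omega) (p_nonneg m) ?_ ?_ ?_ b _
    · push_cast
      rw [← hp]
      linarith
    · exact mul_nonneg (by linarith) (mul_nonneg (by norm_num) (p_nonneg m))
    · have h4 := p_hs hm
      rw [← hp] at h4 ⊢
      have h5 : 0 ≤ p := p_nonneg m
      nlinarith
  have h4 := sum_le_sum h3
  rw [sum_const, Nat.card_Icc, nsmul_eq_mul] at h4
  have h5 : ((2 * m + 1 - 1 : ℕ) : ℝ) * (400 * p ^ 2) = 2 / 5 * p := by
    rw [Nat.add_sub_cancel]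
    push_cast
    have : (2 * (m : ℝ)) * (400 * p ^ 2) = 800 * (m * p) * p := by ring
    rw [this, hpm]
    ring
  rw [h5] at h4
  have h6 : 1 / (4000 * (m : ℝ)) = p / 2 := by
    rw [hp]
    field_simp
    norm_num
  rw [h6]
  linarith

theorem ratio_of {m : ℕ} (hm : 16 ≤ m) (hM : M.E = Set.univ)
    (h : ∀ lt : E → E → Prop, IsStrictTotalOrder E lt → ∀ b : E,
      EX (fun _ => wL (2 * m) (1 / (2000 * m)) 64) (fun ω : E → Lab (2 * m) =>
      if SecE M lt b ω then 1 else 0) ≤ (1 / (2000 * m)) / 10) :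
    ∃ R : OnlineRule M, R.IsCompetitive (ENNReal.ofReal (1 / (4000 * m))) :=
  ⟨_, comp_of_bound (K := 2 * m) (p_nonneg m) (by norm_num : (0 : ℝ) ≤ 64) (p_hs hm) hM
    fun lt hlt b hb => good_bound hm hM hlt hb (h lt hlt b)⟩

theorem ratio_rank {m : ℕ} (hm : 16 ≤ m) (hM : M.E = Set.univ)
    (hr : ∀ I : Finset E, M.Indep (I : Set E) → I.card ≤ 2 ^ m ^ m) :
    ∃ R : OnlineRule M, R.IsCompetitive (ENNReal.ofReal (1 / (4000 * m))) := by
  refine ratio_of hm hM fun lt hlt b => ?_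
  have hm0 := m_pos hm
  set p : ℝ := 1 / (2000 * m) with hp
  have hp0 : 0 ≤ p := p_nonneg m
  have hp1 : p ≤ 1 / 32000 := one_div_le_one_div_of_le (by norm_num) (by linarith)
  have h1 : EX (fun _ => wL (2 * m) p 64) (fun ω : E → Lab (2 * m) =>
      if SecE M lt b ω then 1 else 0) ≤ ∑ z ∈ univ.erase b,
      EX (fun _ => w5 p 64 0) (fun κ : E → C5 => if Ev2 M lt b z (m ^ m + 1) κ then 1 else 0) := by
    have h2 : ∀ ω : E → Lab (2 * m), (if SecE M lt b ω then (1 : ℝ) else 0) ≤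
        ∑ z ∈ univ.erase b, if Ev2 M lt b z (m ^ m + 1) (fun e => cl (2 * m) (ω e))
          then 1 else 0 := by
      intro ω
      by_cases hs : SecE M lt b ω
      · obtain ⟨z, hz, hs'⟩ := hs
        rw [if_pos ⟨z, hz, hs'⟩]
        refine one_le_sum (fun _ _ => ind_nonneg) hz ?_
        rw [if_pos (second_ev2 hm hs')]
      · rw [if_neg hs]
        exact sum_nonneg fun _ _ => ind_nonneg
    have h3 := EX_mono (w := fun _ : E => wL (2 * m) p 64)
      (fun _ l => wL_nonneg hp0 (by norm_num) (p_hs hm) l) h2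
    rw [EX_sum] at h3
    refine h3.trans (le_of_eq (sum_congr rfl fun z _ => ?_))
    have h4 := EX_level (E := E) (K := 2 * m) (k := 2 * m) (by omega) le_rfl p 64
      (fun κ : E → C5 => if Ev2 M lt b z (m ^ m + 1) κ then 1 else 0)
    rw [sub_self, zero_mul] at h4
    exact h4
  have h5 := H218.ev2_sum M hM lt hp0 (by norm_num : (1 : ℝ) ≤ 64) (by linarith) b (m ^ m + 1)
    (2 ^ m ^ m) hr
  refine (h1.trans h5).trans ?_
  rw [Nat.add_sub_cancel]
  have h6 : (((2 ^ m ^ m : ℕ) : ℝ)) * (1 / 64) ^ (m ^ m) ≤ 1 := by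
    push_cast
    rw [← mul_pow]
    exact pow_le_one₀ (by norm_num) (by norm_num)
  have h7 : p ^ 2 * (8 * ((2 ^ m ^ m : ℕ) : ℝ)) * (1 / 64) ^ (m ^ m) =
      8 * p ^ 2 * ((((2 ^ m ^ m : ℕ) : ℝ)) * (1 / 64) ^ (m ^ m)) := by ring
  rw [h7]
  have h8 : 8 * p ^ 2 * ((((2 ^ m ^ m : ℕ) : ℝ)) * (1 / 64) ^ (m ^ m)) ≤ 8 * p ^ 2 * 1 :=
    mul_le_mul_of_nonneg_left h6 (by positivity)
  nlinarith

theorem ratio_circ {m : ℕ} (hm : 16 ≤ m) (hM : M.E = Set.univ)
    (hC : ∀ C, M.IsCircuit C → C.encard ≤ ((m ^ m : ℕ) : ℕ∞)) :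
    ∃ R : OnlineRule M, R.IsCompetitive (ENNReal.ofReal (1 / (4000 * m))) := by
  refine ratio_of hm hM fun lt hlt b => ?_
  have h1 : ∀ ω : E → Lab (2 * m), (if SecE M lt b ω then (1 : ℝ) else 0) = 0 := by
    intro ω
    refine if_neg ?_
    rintro ⟨z, -, hs⟩
    obtain ⟨C, hC1, hC2⟩ := second_circ hm hs
    exact absurd hC2 (not_lt.2 (hC C hC1))
  simp only [h1]
  have h2 : EX (fun _ : E => wL (2 * m) (1 / (2000 * m)) 64)
      (fun _ : E → Lab (2 * m) => (0 : ℝ)) = 0 := by simp [EX]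
  rw [h2]
  have := p_nonneg m
  positivity

end

end Vale.Agent.P331.H489
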