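import Vale.Agent.P331.H489.Ex

/-!
# A functional inequality for contexts inside a random set
-/

set_option autoImplicit false
set_option linter.unusedSectionVars false

namespace Vale.Agent.P331.H489

open Finset

/-- labels: `w` (context set), `r` (sample of which `T` is a random half), `d` (fixed), `o` (other) -/
inductive Q | w | r | d | o
  deriving DecidableEq

instance : Fintype Q := ⟨{.w, .r, .d, .o}, by intro x; cases x <;> decide⟩

/-- labels: `t` (in `T`), `d` (fixed), `o` (other) -/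
inductive N3 | t | d | o
  deriving DecidableEq

instance : Fintype N3 := ⟨{.t, .d, .o}, by intro x; cases x <;> decide⟩

theorem sum_Q (f : Q → ℝ) : ∑ l, f l = f .w + f .r + f .d + f .o := by
  have h : (univ : Finset Q) = {.w, .r, .d, .o} := rfl
  rw [h, sum_insert (by decide), sum_insert (by decide), sum_insert (by decide), sum_singleton]
  ring

theorem sum_N3 (f : N3 → ℝ) : ∑ l, f l = f .t + f .d + f .o := by
  have h : (univ : Finset N3) = {.t, .d, .o} := rfl
  rw [h, sum_insert (by decide), sum_insert (by decide), sum_singleton]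
  ring

/-- the resulting label -/
def mix : Q → Bool → Bool → N3
  | .r, _, s => if s then .t else .o
  | .w, y, _ => if y then .t else .o
  | .d, _, _ => .d
  | .o, _, _ => .o

/-- the weights of the resulting labels -/
noncomputable def w3 {E : Type*} (w4 : E → Q → ℝ) (e : E) : N3 → ℝ
  | .t => w4 e .r / 2
  | .d => w4 e .d
  | .o => w4 e .r / 2 + w4 e .w + w4 e .o

/-- the recursive majorant -/
noncomputable def MM (η : ℝ) : (n : ℕ) → ((Fin n → N3) → ℝ) → (Fin n → Q) → ℝ
  | 0, φ, _ => φ Fin.elim0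
  | n + 1, φ, μ =>
    match μ 0 with
    | .r => (MM η n (fun ν => φ (Fin.cons .t ν)) (fun i => μ i.succ) +
        MM η n (fun ν => φ (Fin.cons .o ν)) (fun i => μ i.succ)) / 2
    | .w => max (MM η n (fun ν => φ (Fin.cons .o ν)) (fun i => μ i.succ))
        (η * MM η n (fun ν => φ (Fin.cons .t ν)) (fun i => μ i.succ))
    | .d => MM η n (fun ν => φ (Fin.cons .d ν)) (fun i => μ i.succ)
    | .o => MM η n (fun ν => φ (Fin.cons .o ν)) (fun i => μ i.succ)

theorem MM_nonneg (η : ℝ) : ∀ (n : ℕ) (φ : (Fin n → N3) → ℝ) (_ : ∀ ν, 0 ≤ φ ν)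
    (μ : Fin n → Q), 0 ≤ MM η n φ μ
  | 0, φ, h, _ => h _
  | n + 1, φ, h, μ => by
    have ih := fun l => MM_nonneg η n (fun ν => φ (Fin.cons l ν)) (fun ν => h _)
      (fun i => μ i.succ)
    rw [MM]
    cases μ 0 with
    | r => exact div_nonneg (add_nonneg (ih _) (ih _)) (by norm_num)
    | w => exact le_max_of_le_left (ih _)
    | d => exact ih _
    | o => exact ih _

theorem key_ineq {r v a c η : ℝ} (hr0 : 0 ≤ r) (hv : 0 ≤ v) (ha : 0 ≤ a) (hc : 0 ≤ c)
    (h0 : 0 ≤ η) (h1 : η ≤ 1) (h : η * (r + 2 * v) ≤ r) :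
    r * ((c + a) / 2) ^ 2 + v * (max a (η * c)) ^ 2 ≤ (r / 2 + v) * a ^ 2 + r / 2 * c ^ 2 := by
  have hr : 0 ≤ r * (1 - η) := by nlinarith [mul_nonneg h0 hv]
  rcases le_total (η * c) a with h2 | h2
  · rw [max_eq_left h2]
    nlinarith [mul_nonneg hr0 (sq_nonneg (c - a))]
  · rw [max_eq_right h2]
    -- (c-a)^2 ≥ 4 (ηc - a)(1-η)c
    have h3 : 4 * (η * c - a) * ((1 - η) * c) ≤ (c - a) ^ 2 := by
      nlinarith [sq_nonneg ((η * c - a) - (1 - η) * c)]
    have h4 : v * ((η * c) ^ 2 - a ^ 2) ≤ v * ((η * c - a) * (2 * (η * c))) := by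
      apply mul_le_mul_of_nonneg_left _ hv
      nlinarith
    have h5 : 2 * v * η ≤ r * (1 - η) := by nlinarith
    have h6 : v * ((η * c - a) * (2 * (η * c))) ≤ r * (1 - η) * ((η * c - a) * c) := by
      have h7 : 0 ≤ (η * c - a) * c := mul_nonneg (by linarith) hc
      nlinarith [mul_le_mul_of_nonneg_right h5 h7]
    have h8 : r * (1 - η) * ((η * c - a) * c) ≤ r / 4 * (c - a) ^ 2 := by
      nlinarith [mul_le_mul_of_nonneg_left h3 hr0]
    nlinarith

theorem L2_fin {η : ℝ} (h0 : 0 ≤ η) (h1 : η ≤ 1) : ∀ (n : ℕ) (w4 : Fin n → Q → ℝ)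
    (_ : ∀ i l, 0 ≤ w4 i l) (_ : ∀ i, η * (w4 i .r + 2 * w4 i .w) ≤ w4 i .r)
    (φ : (Fin n → N3) → ℝ) (_ : ∀ ν, 0 ≤ φ ν),
    EX w4 (fun μ => (MM η n φ μ) ^ 2) ≤ EX (w3 w4) (fun ν => (φ ν) ^ 2)
  | 0, w4, _, _, φ, _ => by
    simp only [EX, Fintype.sum_unique, univ_eq_empty, prod_empty, one_mul, MM]
    exact le_of_eq (congrArg (fun ν => (φ ν) ^ 2) (Subsingleton.elim _ _))
  | n + 1, w4, hw, hη, φ, hφ => by
    have ih := fun l => L2_fin h0 h1 n (fun i => w4 i.succ) (fun i l => hw _ l)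
      (fun i => hη _) (fun ν => φ (Fin.cons l ν)) (fun ν => hφ _)
    rw [EX_cons, EX_cons, sum_Q, sum_N3]
    set A := fun l (μ : Fin n → Q) => MM η n (fun ν => φ (Fin.cons l ν)) μ with hA
    have hA0 : ∀ l μ, 0 ≤ A l μ := fun l μ => MM_nonneg η n _ (fun ν => hφ _) μ
    have e1 : ∀ μ : Fin n → Q, MM η (n + 1) φ (Fin.cons .w μ) =
        max (A .o μ) (η * A .t μ) := fun μ => rfl
    have e2 : ∀ μ : Fin n → Q, MM η (n + 1) φ (Fin.cons .r μ) =
        (A .t μ + A .o μ) / 2 := fun μ => rfl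
    have e3 : ∀ μ : Fin n → Q, MM η (n + 1) φ (Fin.cons .d μ) = A .d μ := fun μ => rfl
    have e4 : ∀ μ : Fin n → Q, MM η (n + 1) φ (Fin.cons .o μ) = A .o μ := fun μ => rfl
    simp only [e1, e2, e3, e4]
    have key : w4 0 .w * EX (fun i : Fin n => w4 i.succ)
        (fun μ => (max (A .o μ) (η * A .t μ)) ^ 2) +
        w4 0 .r * EX (fun i : Fin n => w4 i.succ) (fun μ => ((A .t μ + A .o μ) / 2) ^ 2) ≤
        (w4 0 .r / 2 + w4 0 .w) * EX (fun i : Fin n => w4 i.succ) (fun μ => (A .o μ) ^ 2) +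
        w4 0 .r / 2 * EX (fun i : Fin n => w4 i.succ) (fun μ => (A .t μ) ^ 2) := by
      rw [← EX_mul, ← EX_mul, ← EX_mul, ← EX_mul, ← EX_add, ← EX_add]
      refine EX_mono (fun i l => hw _ l) fun μ => ?_
      have := key_ineq (hw 0 .r) (hw 0 .w) (hA0 .o μ) (hA0 .t μ) h0 h1 (hη 0)
      linarith
    have t1 := ih .t
    have t2 := ih .o
    have t3 := ih .d
    have q1 := mul_le_mul_of_nonneg_left t1 (by have := hw 0 .r; linarith : 0 ≤ w4 0 .r / 2)
    have q2 := mul_le_mul_of_nonneg_left t2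
      (by have := hw 0 .r; have := hw 0 .w; have := hw 0 .o; linarith :
        0 ≤ w4 0 .r / 2 + w4 0 .w + w4 0 .o)
    have q3 := mul_le_mul_of_nonneg_left t3 (hw 0 .d)
    have s : (fun i : Fin n => w3 w4 i.succ) = w3 (fun i => w4 i.succ) := by
      funext i l
      cases l <;> rfl
    rw [s]
    change _ ≤ w4 0 .r / 2 * _ + w4 0 .d * _ + (w4 0 .r / 2 + w4 0 .w + w4 0 .o) * _
    nlinarith [key, q1, q2, q3]

theorem sum_bool (f : Bool → ℝ) : ∑ b, f b = f true + f false := by
  rw [Fintype.sum_bool]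

theorem le_MM {η : ℝ} (h0 : 0 ≤ η) : ∀ (n : ℕ) (φ : (Fin n → N3) → ℝ) (_ : ∀ ν, 0 ≤ φ ν)
    (μ : Fin n → Q) (y : Fin n → Bool),
    (∏ i, if μ i = .w ∧ y i = true then η else 1) *
      EX (fun _ _ => 1 / 2) (fun s : Fin n → Bool => φ fun i => mix (μ i) (y i) (s i)) ≤
      MM η n φ μ
  | 0, φ, _, μ, y => by
    simp only [EX, Fintype.sum_unique, univ_eq_empty, prod_empty, one_mul, MM]
    exact le_of_eq (congrArg φ (Subsingleton.elim _ _))
  | n + 1, φ, hφ, μ, y => by
    have ih := fun l => le_MM h0 n (fun ν => φ (Fin.cons l ν)) (fun ν => hφ _)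
      (fun i => μ i.succ) (fun i => y i.succ)
    rw [Fin.prod_univ_succ, EX_cons, sum_bool, MM]
    have e : ∀ (b : Bool) (s : Fin n → Bool),
        (fun i : Fin (n + 1) => mix (μ i) (y i) ((Fin.cons b s : Fin (n + 1) → Bool) i)) =
        Fin.cons (mix (μ 0) (y 0) b) (fun i => mix (μ i.succ) (y i.succ) (s i)) := by
      intro b s
      funext i
      refine Fin.cases ?_ (fun i => ?_) i
      · rfl
      · rfl
    simp only [e]
    set P := ∏ i : Fin n, if μ i.succ = .w ∧ y i.succ = true then η else 1 with hP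
    have hP0 : 0 ≤ P := prod_nonneg fun i _ => by split_ifs <;> linarith
    set G := fun l => EX (fun _ _ => 1 / 2)
      (fun s : Fin n → Bool => φ (Fin.cons l fun i => mix (μ i.succ) (y i.succ) (s i))) with hG
    have hG0 : ∀ l, 0 ≤ G l := fun l => EX_nonneg (fun _ _ => by norm_num) fun _ => hφ _
    have ih' : ∀ l, P * G l ≤ MM η n (fun ν => φ (Fin.cons l ν)) (fun i => μ i.succ) := ih
    rcases h : μ 0 with _ | _ | _ | _
    · -- w
      simp only [mix]
      rcases hy : y 0 with _ | _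
      · have h1 := ih' .o
        simp only [true_and, Bool.false_eq_true, if_false, one_mul]
        refine le_max_of_le_left ?_
        change P * (1 / 2 * G .o + 1 / 2 * G .o) ≤ _
        linarith
      · have h1 := ih' .t
        simp only [and_self, if_true]
        refine le_max_of_le_right ?_
        change η * P * (1 / 2 * G .t + 1 / 2 * G .t) ≤ _
        have := mul_le_mul_of_nonneg_left h1 h0
        linarith
    · have h1 := ih' .t
      have h2 := ih' .o
      simp only [mix, reduceCtorEq, false_and, if_false, if_true, one_mul,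
        Bool.false_eq_true]
      change P * (1 / 2 * G .t + 1 / 2 * G .o) ≤ _
      linarith
    · have h1 := ih' .d
      simp only [mix, reduceCtorEq, false_and, if_false, one_mul]
      change P * (1 / 2 * G .d + 1 / 2 * G .d) ≤ _
      linarith
    · have h1 := ih' .o
      simp only [mix, reduceCtorEq, false_and, if_false, one_mul]
      change P * (1 / 2 * G .o + 1 / 2 * G .o) ≤ _
      linarith

section

variable {E : Type*} [Fintype E] [DecidableEq E]

/-- **The functional inequality.** If, for the labelling `μ`, some context `y` inside the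
`w`-labels of size at most `m` makes the average of `φ` over `T` at least `δ`, then ... -/
theorem L2_event {η : ℝ} (h0 : 0 ≤ η) (h1 : η ≤ 1) (w4 : E → Q → ℝ)
    (hw : ∀ e l, 0 ≤ w4 e l) (hη : ∀ e, η * (w4 e .r + 2 * w4 e .w) ≤ w4 e .r)
    (φ : (E → N3) → ℝ) (hφ : ∀ ν, 0 ≤ φ ν) (Rel : (E → Q) → Prop) [DecidablePred Rel]
    {δ : ℝ} (hδ : 0 ≤ δ) (m : ℕ)
    (hRel : ∀ μ, Rel μ → ∃ y : E → Bool, (univ.filter fun e => y e = true).card ≤ m ∧
      δ ≤ EX (fun _ _ => 1 / 2) (fun s : E → Bool => φ fun e => mix (μ e) (y e) (s e))) :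
    (η ^ m * δ) ^ 2 * EX w4 (fun μ => if Rel μ then 1 else 0) ≤
      EX (w3 w4) (fun ν => (φ ν) ^ 2) := by
  set σ := Fintype.equivFin E
  set n := Fintype.card E
  have a1 := L2_fin h0 h1 n (fun i => w4 (σ.symm i)) (fun i l => hw _ l) (fun i => hη _)
    (fun ν => φ (ν ∘ σ)) (fun ν => hφ _)
  have a2 : EX (w3 w4) (fun ν => (φ ν) ^ 2) =
      EX (w3 fun i => w4 (σ.symm i)) (fun ν => (φ (ν ∘ σ)) ^ 2) := by
    rw [EX_reindex σ]
    congr 1
  rw [a2]
  refine le_trans ?_ a1
  rw [EX_reindex σ, ← EX_mul]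
  refine EX_mono (fun i l => hw _ l) fun μ => ?_
  by_cases hr : Rel (μ ∘ σ)
  · rw [if_pos hr, mul_one]
    obtain ⟨y, hy, hδy⟩ := hRel _ hr
    have b1 := le_MM h0 n (fun ν => φ (ν ∘ σ)) (fun ν => hφ _) μ (y ∘ σ.symm)
    have b2 : EX (fun _ _ => 1 / 2) (fun s : E → Bool => φ fun e => mix ((μ ∘ σ) e) (y e) (s e)) =
        EX (fun _ _ => 1 / 2) (fun s : Fin n → Bool =>
          φ ((fun i => mix (μ i) ((y ∘ σ.symm) i) (s i)) ∘ σ)) := by
      rw [EX_reindex σ]
      congr 1
      funext s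
      congr 1
      funext e
      simp
    rw [b2] at hδy
    have b3 : η ^ m ≤ ∏ i, if μ i = .w ∧ (y ∘ σ.symm) i = true then η else 1 := by
      have c1 : (∏ i : Fin n, if (y ∘ σ.symm) i = true then η else 1) ≤
          ∏ i, if μ i = .w ∧ (y ∘ σ.symm) i = true then η else 1 := by
        refine prod_le_prod (fun i _ => by split_ifs <;> linarith) fun i _ => ?_
        by_cases hi : (y ∘ σ.symm) i = true
        · rw [if_pos hi]
          split_ifs
          · exact le_rfl
          · exact h1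
        · rw [if_neg hi, if_neg fun h => hi h.2]
      refine le_trans ?_ c1
      rw [← prod_filter, prod_const]
      have c2 : (univ.filter fun i : Fin n => (y ∘ σ.symm) i = true).card =
          (univ.filter fun e => y e = true).card := by
        rw [← Finset.card_map σ.toEmbedding]
        congr 1
        ext i
        simp [Finset.mem_map_equiv]
      rw [c2]
      exact pow_le_pow_of_le_one h0 h1 hy
    have b4 : η ^ m * δ ≤ MM η n (fun ν => φ (ν ∘ σ)) μ := by
      refine le_trans ?_ b1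
      exact mul_le_mul b3 hδy hδ (le_trans (pow_nonneg h0 m) b3)
    exact pow_le_pow_left₀ (mul_nonneg (pow_nonneg h0 m) hδ) b4 2
  · rw [if_neg hr, mul_zero]
    positivity

end

end Vale.Agent.P331.H489
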