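import Vale.Agent.P331.H489.Asm

/-!
# The main inequality
-/

set_option autoImplicit false
set_option linter.unusedSectionVars false

namespace Vale.Agent.P331.H489

open Finset Vale.Agent.P331 Vale.Agent.P331.H819
open scoped Classical ENNReal

theorem one_le_sum {ι : Type*} {s : Finset ι} {f : ι → ℝ} (hf : ∀ i ∈ s, 0 ≤ f i) {i : ι}
    (hi : i ∈ s) (h1 : 1 ≤ f i) : 1 ≤ ∑ i ∈ s, f i :=
  h1.trans (single_le_sum hf hi)

theorem ind_nonneg {P : Prop} [Decidable P] : (0 : ℝ) ≤ if P then 1 else 0 := by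
  split_ifs <;> norm_num

section

variable {E : Type} [Fintype E] {M : Matroid E}

/-- `b` is a safe test element -/
def Good {K : ℕ} {p lam : ℝ} (hp : 0 ≤ p) (hlam : 0 ≤ lam) (hs : p + K * (lam * p) ≤ 1 / 2)
    (M : Matroid E) (lt : E → E → Prop) (b : E) (ω : E → Lab K) : Prop :=
  (data M K p lam hp hlam hs).T ω b ∧ (data M K p lam hp hlam hs).Safe ω lt b

/-- the second alternative for some `z` -/
def SecE (M : Matroid E) {K : ℕ} (lt : E → E → Prop) (b : E) (ω : E → Lab K) : Prop :=
  ∃ z ∈ univ.erase b, Second M ω lt b z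

/-- splitting the probability of the label of `b` -/
theorem main_ineq {K : ℕ} {p lam : ℝ} (hp : 0 ≤ p) (hlam : 0 ≤ lam)
    (hs : p + K * (lam * p) ≤ 1 / 2) (hM : M.E = Set.univ) {lt : E → E → Prop}
    (hlt : IsStrictTotalOrder E lt) {b : E} (hb : b ∉ M.closure {f | lt b f}) :
    p ≤ EX (fun _ => wL K p lam) (fun ω : E → Lab K =>
        if Good hp hlam hs M lt b ω then 1 else 0) +
      (∑ k ∈ Icc 1 K, ∑ x ∈ Icc 1 (Fintype.card E), ∑ z ∈ univ.erase b,
        EX (fun _ => w5 p lam (((K : ℝ) - k) * (lam * p)))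
          (fun κ : E → C5 => if Ev1 M lt b z x (1 + sig K x) κ then 1 else 0)) +
      EX (fun _ => wL K p lam) (fun ω : E → Lab K =>
        if SecE M lt b ω then 1 else 0) := by
  have hw : ∀ (e : E) (l : Lab K), 0 ≤ wL K p lam l := fun _ l => wL_nonneg hp hlam hs l
  have h1 : EX (fun _ => wL K p lam) (fun ω : E → Lab K => if ω b = Sum.inl 0 then (1 : ℝ) else 0) =
      p := by
    rw [EX_cond b (Sum.inl 0) (Sum.inl 0), EX_one, mul_one]
    · rfl
    · intro e
      by_cases he : e = b
      · subst he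
        rw [Function.update_self]
        simp
      · rw [Function.update_of_ne he]
        exact wL_sum K p lam
  have h2 : ∀ ω : E → Lab K, (if ω b = Sum.inl 0 then (1 : ℝ) else 0) ≤
      ((if Good hp hlam hs M lt b ω then 1 else 0) +
        ∑ k ∈ Icc 1 K, ∑ x ∈ Icc 1 (Fintype.card E), ∑ z ∈ univ.erase b,
          if Ev1 M lt b z x (1 + sig K x) (fun e => cl k (ω e)) then 1 else 0) +
      if SecE M lt b ω then 1 else 0 := by
    intro ω
    have s0 : (0 : ℝ) ≤ ∑ k ∈ Icc 1 K, ∑ x ∈ Icc 1 (Fintype.card E), ∑ z ∈ univ.erase b,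
          if Ev1 M lt b z x (1 + sig K x) (fun e => cl k (ω e)) then 1 else 0 :=
      sum_nonneg fun _ _ => sum_nonneg fun _ _ => sum_nonneg fun _ _ => ind_nonneg
    have s1 : (0 : ℝ) ≤ if Good hp hlam hs M lt b ω then 1 else 0 := ind_nonneg
    have s2 : (0 : ℝ) ≤ if SecE M lt b ω then 1 else 0 := ind_nonneg
    by_cases hbT : ω b = Sum.inl 0
    · rw [if_pos hbT]
      by_cases hsafe : (data M K p lam hp hlam hs).Safe ω lt b
      · have : (if Good hp hlam hs M lt b ω then (1 : ℝ) else 0) = 1 := if_pos ⟨hbT, hsafe⟩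
        rw [this]
        linarith
      · rcases unsafe_ev hM hlt hb hbT hsafe with ⟨k, hk, x, hx, z, hz, hev⟩ | hsec
        · have : (1 : ℝ) ≤ ∑ k ∈ Icc 1 K, ∑ x ∈ Icc 1 (Fintype.card E), ∑ z ∈ univ.erase b,
            if Ev1 M lt b z x (1 + sig K x) (fun e => cl k (ω e)) then 1 else 0 := by
            refine one_le_sum (fun _ _ => sum_nonneg fun _ _ => sum_nonneg fun _ _ => ind_nonneg)
              hk (one_le_sum (fun _ _ => sum_nonneg fun _ _ => ind_nonneg) hx
                (one_le_sum (fun _ _ => ind_nonneg) hz ?_))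
            rw [if_pos hev]
          linarith
        · rw [if_pos (show SecE M lt b ω from hsec)]
          linarith
    · rw [if_neg hbT]
      linarith
  have h3 := EX_mono hw h2
  rw [h1, EX_add, EX_add, EX_sum] at h3
  refine h3.trans (le_of_eq ?_)
  congr 2
  refine sum_congr rfl fun k hk => ?_
  rw [mem_Icc] at hk
  rw [EX_sum]
  refine sum_congr rfl fun x _ => ?_
  rw [EX_sum]
  refine sum_congr rfl fun z _ => ?_
  exact EX_level hk.1 hk.2 p lam fun κ => if Ev1 M lt b z x (1 + sig K x) κ then 1 else 0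

/-- from the real valued bound to the competitive rule -/
theorem comp_of_bound {K : ℕ} {p lam : ℝ} (hp : 0 ≤ p) (hlam : 0 ≤ lam)
    (hs : p + K * (lam * p) ≤ 1 / 2) (hM : M.E = Set.univ) {c : ℝ}
    (h : ∀ lt : E → E → Prop, IsStrictTotalOrder E lt → ∀ b, b ∉ M.closure {f | lt b f} →
      c ≤ EX (fun _ => wL K p lam) (fun ω : E → Lab K =>
        if Good hp hlam hs M lt b ω then 1 else 0)) :
    (data M K p lam hp hlam hs).rule.IsCompetitive (ENNReal.ofReal c) := by
  refine Data.competitive _ hM fun lt hlt b hb => ?_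
  refine (ENNReal.ofReal_le_ofReal (h lt hlt b hb)).trans (le_of_eq ?_)
  have h1 : ENNReal.ofReal (EX (fun _ => wL K p lam) (fun ω : E → Lab K =>
      if Good hp hlam hs M lt b ω then 1 else 0)) =
      ∑ ω : E → Lab K, ENNReal.ofReal (∏ e, wL K p lam (ω e)) *
        (if Good hp hlam hs M lt b ω then 1 else 0) := by
    unfold EX
    dsimp only
    rw [ENNReal.ofReal_sum_of_nonneg fun ω _ =>
      mul_nonneg (prod_nonneg fun e _ => wL_nonneg hp hlam hs _) ind_nonneg]
    refine Finset.sum_congr rfl fun ω _ => ?_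
    by_cases hP : Good hp hlam hs M lt b ω
    · rw [if_pos hP, if_pos hP, mul_one, mul_one]
    · rw [if_neg hP, if_neg hP, mul_zero, mul_zero, ENNReal.ofReal_zero]
  rw [h1]
  refine Finset.sum_congr rfl fun ω _ => ?_
  by_cases hP : Good hp hlam hs M lt b ω
  · rw [if_pos hP]
    exact congrArg _ (if_pos hP).symm
  · rw [if_neg hP]
    exact congrArg _ (if_neg hP).symm

end

end Vale.Agent.P331.H489
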