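import Vale.Agent.P331.H489.Core
import Vale.Agent.P331.H819.Static

/-!
# The rule
-/

set_option autoImplicit false
set_option linter.unusedSectionVars false

namespace Vale.Agent.P331.H489

open Finset Vale.Agent.P331 Vale.Agent.P331.H819
open scoped Classical ENNReal

/-- labels: test set `inl 0`, sample `inl 1`, nothing `inl 2`, pools `inr j` -/
abbrev Lab (K : ℕ) := Fin 3 ⊕ Fin K

/-- the weights of the labels -/
noncomputable def wL (K : ℕ) (p lam : ℝ) : Lab K → ℝ :=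
  Sum.elim ![p, 1 / 2, 1 / 2 - p - K * (lam * p)] fun _ => lam * p

theorem wL_sum (K : ℕ) (p lam : ℝ) : ∑ l, wL K p lam l = 1 := by
  rw [Fintype.sum_sum_type, Fin.sum_univ_three]
  simp [wL]
  ring

theorem wL_nonneg {K : ℕ} {p lam : ℝ} (hp : 0 ≤ p) (hlam : 0 ≤ lam)
    (hs : p + K * (lam * p) ≤ 1 / 2) (l : Lab K) : 0 ≤ wL K p lam l := by
  rcases l with i | j
  · fin_cases i
    · exact hp
    · simp [wL]
    · simp [wL]
      linarith
  · exact mul_nonneg hlam hp

section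

variable {E : Type} [Fintype E] (M : Matroid E)

/-- the pools used at level `k` -/
def Dk {K : ℕ} (k : ℕ) (ω : E → Lab K) (e : E) : Prop := ∃ j : Fin K, ω e = Sum.inr j ∧ k ≤ j.val

/-- the set `X` violates `z` at level `k` -/
def vio {K : ℕ} (k : ℕ) (ω : E → Lab K) (lt : E → E → Prop) (z : E) (X : Finset E) : Prop :=
  miss M lt z (fun e => ω e = Sum.inl 1) (fun e => Dk k ω e ∨ e ∈ X) ≤
    1 / (2 * ((X.card : ℝ) + 1))

def sig (K x : ℕ) : ℕ := Nat.clog 2 x + x / K

/-- the forbidden configurations -/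
def Bad {K : ℕ} (k : ℕ) (ω : E → Lab K) (lt : E → E → Prop) (z : E) (X : Finset E) : Prop :=
  vio M k ω lt z X ∧ (∀ X' ⊂ X, ¬ vio M k ω lt z X') ∧
    ∀ U ⊆ X, U.card < 1 + sig K X.card → ¬ vio M (k - 1) ω lt z U

/-- the legal sets -/
def Leg {K : ℕ} (ω : E → Lab K) (lt : E → E → Prop) (B : Set E) : Prop :=
  M.Indep B ∧ ∀ z ∈ B, ¬ vio M 0 ω lt z ∅ ∧ ∀ k, 1 ≤ k → k ≤ K → ∀ X : Finset E,
    (∀ e ∈ X, e ∈ B ∧ lt z e) → ¬ Bad M k ω lt z X

variable {M}

theorem cov_congr {lt lt' : E → E → Prop} {z : E} {P : E → Prop}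
    (h : ∀ e, P e → (lt z e ↔ lt' z e)) : cov M lt z P ↔ cov M lt' z P := by
  have : {e | lt z e ∧ P e} = {e | lt' z e ∧ P e} := by
    ext e
    constructor
    · rintro ⟨h1, h2⟩
      exact ⟨(h e h2).1 h1, h2⟩
    · rintro ⟨h1, h2⟩
      exact ⟨(h e h2).2 h1, h2⟩
  unfold cov
  rw [this]

theorem miss_congr {lt lt' : E → E → Prop} {z : E} {R P : E → Prop}
    (h : ∀ e, R e ∨ P e → (lt z e ↔ lt' z e)) : miss M lt z R P = miss M lt' z R P := by
  unfold miss
  congr 1
  funext s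
  have := cov_congr (M := M) (lt := lt) (lt' := lt') (z := z)
    (P := fun e => P e ∨ (R e ∧ s e = true)) fun e he => h e (he.elim Or.inr fun h => Or.inl h.1)
  simp only [this]

theorem vio_congr {K k : ℕ} {ω : E → Lab K} {lt lt' : E → E → Prop} {z : E} {X : Finset E}
    (h : ∀ e, e ∈ X ∨ ¬ ω e = Sum.inl 0 → (lt z e ↔ lt' z e)) :
    vio M k ω lt z X ↔ vio M k ω lt' z X := by
  unfold vio
  rw [miss_congr (lt' := lt')]
  rintro e (he | ⟨j, hj, _⟩ | he)
  · exact h e (Or.inr (by rw [he]; simp))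
  · exact h e (Or.inr (by rw [hj]; exact Sum.inr_ne_inl))
  · exact h e (Or.inl he)

theorem Bad_congr {K k : ℕ} {ω : E → Lab K} {lt lt' : E → E → Prop} {z : E} {X : Finset E}
    (h : ∀ e, e ∈ X ∨ ¬ ω e = Sum.inl 0 → (lt z e ↔ lt' z e)) :
    Bad M k ω lt z X ↔ Bad M k ω lt' z X := by
  have hs : ∀ (k' : ℕ) (U : Finset E), U ⊆ X → (vio M k' ω lt z U ↔ vio M k' ω lt' z U) :=
    fun k' U hU => vio_congr fun e he => h e (he.imp (fun h1 => hU h1) id)
  unfold Bad
  rw [hs k X subset_rfl]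
  refine and_congr Iff.rfl (and_congr ?_ ?_)
  · refine forall_congr' fun X' => ?_
    refine forall_congr' fun hX' => ?_
    rw [hs k X' hX'.subset]
  · refine forall_congr' fun U => ?_
    refine forall_congr' fun hU => ?_
    rw [hs (k - 1) U hU]

variable (M)

/-- The static rule. -/
noncomputable def data (K : ℕ) (p lam : ℝ) (hp : 0 ≤ p) (hlam : 0 ≤ lam)
    (hs : p + K * (lam * p) ≤ 1 / 2) : Data M where
  Sd := E → Lab K
  w := fun ω => ENNReal.ofReal (∏ e, wL K p lam (ω e))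
  w_sum := by
    rw [← ENNReal.ofReal_sum_of_nonneg fun ω _ => prod_nonneg fun e _ => wL_nonneg hp hlam hs _]
    have h := EX_one (fun _ : E => wL K p lam) (fun _ => wL_sum K p lam) 1
    unfold EX at h
    simp only [mul_one] at h
    rw [h, ENNReal.ofReal_one]
  T := fun ω e => ω e = Sum.inl 0
  Leg := fun ω lt B => Leg M ω lt B
  empty := fun ω lt => ⟨M.empty_indep, fun z hz => absurd hz (Set.notMem_empty z)⟩
  loc := by
    intro ω lt lt' B _ h hB
    refine ⟨hB.1, fun z hz => ?_⟩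
    obtain ⟨h1, h2⟩ := hB.2 z hz
    refine ⟨?_, fun k hk hkK X hX => ?_⟩
    · rwa [← vio_congr (lt := lt)]
      rintro e (he | he)
      · exact absurd he (notMem_empty e)
      · exact h z e (Or.inl hz) (Or.inr he)
    · have hX' : ∀ e ∈ X, e ∈ B ∧ lt z e := fun e he =>
        ⟨(hX e he).1, (h z e (Or.inl hz) (Or.inl (hX e he).1)).2 (hX e he).2⟩
      rw [← Bad_congr (lt := lt)]
      · exact h2 k hk hkK X hX'
      · rintro e (he | he)
        · exact h z e (Or.inl hz) (Or.inl (hX e he).1)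
        · exact h z e (Or.inl hz) (Or.inr he)
  indep := fun ω lt _ B _ hB => hB.1

variable {M}

theorem vio_mono {K k : ℕ} {ω : E → Lab K} {lt : E → E → Prop} {z : E} :
    vio M k ω lt z ∅ → vio M 0 ω lt z ∅ := by
  intro h
  refine le_trans (miss_anti M lt (fun e he => he) ?_) h
  rintro e (⟨j, hj, hk⟩ | he)
  · exact Or.inl ⟨j, hj, Nat.zero_le _⟩
  · exact Or.inr he

theorem exists_minimal {P : Finset E → Prop} (U : Finset E) (hU : P U) :
    ∃ X ⊆ U, P X ∧ ∀ X' ⊂ X, ¬ P X' := by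
  induction U using Finset.strongInduction with
  | H U ih =>
    by_cases h : ∃ X' ⊂ U, P X'
    · obtain ⟨X', hX', hP⟩ := h
      obtain ⟨X, hX, h1, h2⟩ := ih X' hX' hP
      exact ⟨X, hX.trans hX'.subset, h1, h2⟩
    · push Not at h
      exact ⟨U, subset_rfl, hU, h⟩

/-- the descending chain -/
theorem chain {K : ℕ} {ω : E → Lab K} {lt : E → E → Prop} {z : E} {X : Finset E}
    (h0 : ¬ vio M 0 ω lt z ∅)
    (hX : ∀ k, 1 ≤ k → k ≤ K → ∀ X' ⊆ X, ¬ Bad M k ω lt z X') :
    ∀ k ≤ K, ∀ U ⊆ X, vio M k ω lt z U →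
      ∃ u : ℕ → ℕ, (∀ j < k, u j ≤ sig K (u (j + 1))) ∧ 1 ≤ u 0 ∧ u k ≤ U.card
  | 0, _, U, _, hv => by
    refine ⟨fun _ => U.card, fun j hj => absurd hj (Nat.not_lt_zero _), ?_, le_rfl⟩
    rw [Nat.one_le_iff_ne_zero, Ne, card_eq_zero]
    rintro rfl
    exact h0 hv
  | k + 1, hk, U, hU, hv => by
    obtain ⟨X', hX', h1, h2⟩ := exists_minimal (P := vio M (k + 1) ω lt z) U hv
    have h3 := hX (k + 1) (by omega) hk X' (hX'.trans hU)
    unfold Bad at h3
    push Not at h3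
    obtain ⟨U', hU', hc, hv'⟩ := h3 h1 h2
    rw [Nat.add_sub_cancel] at hv'
    obtain ⟨u, hu1, hu2, hu3⟩ := chain h0 hX k (by omega) U' (hU'.trans (hX'.trans hU)) hv'
    refine ⟨fun j => if j ≤ k then u j else X'.card, ?_, ?_, ?_⟩
    · intro j hj
      dsimp only
      rcases Nat.lt_succ_iff_lt_or_eq.1 hj with hj | rfl
      · rw [if_pos hj.le, if_pos (by omega : j + 1 ≤ k)]
        exact hu1 j hj
      · rw [if_pos le_rfl, if_neg (by omega : ¬ j + 1 ≤ j)]
        omega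
    · dsimp only
      rw [if_pos (Nat.zero_le _)]
      exact hu2
    · dsimp only
      rw [if_neg (by omega : ¬ k + 1 ≤ k)]
      exact card_le_card hX'

/-- If the element `b` of the greedy basis is not safe, then it is blamed or closes a lucky
circuit. -/
theorem unsafe_cases {K : ℕ} {ω : E → Lab K} (hM : M.E = Set.univ) {lt : E → E → Prop}
    (hlt : IsStrictTotalOrder E lt) {b : E} (hb : b ∉ M.closure {f | lt b f})
    {B : Set E} (hB : ∀ f ∈ B, f ≠ b ∧ ω f = Sum.inl 0) (hLB : Leg M ω lt B)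
    (hn : ¬ Leg M ω lt (insert b B)) (hbT : ω b = Sum.inl 0) :
    (∃ z ≠ b, ∃ k, 1 ≤ k ∧ k ≤ K ∧ ∃ X : Finset E, ω z = Sum.inl 0 ∧ b ∈ X ∧
      (∀ e ∈ X, ω e = Sum.inl 0 ∧ lt z e) ∧ Bad M k ω lt z X) ∨
    (∃ z ≠ b, ∃ X : Finset E, ω z = Sum.inl 0 ∧ b ∈ X ∧
      (∀ e ∈ X, ω e = Sum.inl 0 ∧ lt z e) ∧ cov M lt z (fun e => e ∈ X) ∧
      M.IsCircuit (insert z (X : Set E)) ∧ ¬ vio M 0 ω lt z ∅ ∧
      ∀ k, 1 ≤ k → k ≤ K → ∀ X' ⊆ X, ¬ Bad M k ω lt z X') := by
  have hins : ∀ f ∈ insert b B, ω f = Sum.inl 0 := by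
    rintro f (rfl | hf)
    · exact hbT
    · exact (hB f hf).2
  have hmiss : ∀ R P : E → Prop, miss M lt b R P = 1 := fun R P => miss_eq_one M lt hb
  have hnv : ∀ (k : ℕ) (X : Finset E), ¬ vio M k ω lt b X := by
    intro k X h
    unfold vio at h
    rw [hmiss] at h
    have h1 : (0 : ℝ) ≤ (X.card : ℝ) := Nat.cast_nonneg _
    have h2 : 1 / (2 * ((X.card : ℝ) + 1)) < 1 := by
      rw [div_lt_one (by positivity)]
      linarith
    linarith
  by_cases hdep : M.Indep (insert b B)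
  · -- some element of the new set is not allowed
    left
    unfold Leg at hn
    push Not at hn
    obtain ⟨z, hz, hz2⟩ := hn hdep
    rcases hz with rfl | hz
    · obtain ⟨k, hk, hkK, X, hX, hbad⟩ := hz2 (hnv 0 ∅)
      exact absurd hbad.1 (hnv k X)
    · obtain ⟨k, hk, hkK, X, hX, hbad⟩ := hz2 (hLB.2 z hz).1
      refine ⟨z, (hB z hz).1, k, hk, hkK, X, (hB z hz).2, ?_, fun e he =>
        ⟨hins e (hX e he).1, (hX e he).2⟩, hbad⟩
      by_contra hbX
      refine (hLB.2 z hz).2 k hk hkK X (fun e he => ⟨?_, (hX e he).2⟩) hbad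
      rcases (hX e he).1 with rfl | h
      · exact absurd he hbX
      · exact h
  · have hdep' : M.Dep (insert b B) :=
      (Matroid.not_indep_iff (by rw [hM]; exact Set.subset_univ _)).1 hdep
    obtain ⟨C, hCs, hC⟩ := hdep'.exists_isCircuit_subset
    have hbC : b ∈ C := by
      by_contra h
      refine hC.dep.not_indep (hLB.1.subset fun e he => ?_)
      rcases hCs he with rfl | h'
      · exact absurd he h
      · exact h'
    -- the lightest element
    obtain ⟨z, hzC, hz⟩ : ∃ z ∈ C, ∀ e ∈ C, e ≠ z → lt z e := by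
      have hwf : WellFounded lt := Finite.wellFounded_of_trans_of_irrefl lt
      obtain ⟨z, hzC, hz⟩ := hwf.has_min C hC.nonempty
      refine ⟨z, hzC, fun e he hne => ?_⟩
      rcases trichotomous_of lt z e with h | h | h
      · exact h
      · exact absurd h.symm hne
      · exact absurd h (hz e he)
    have hcl : z ∈ M.closure (C \ {z}) := hC.mem_closure_sdiff_singleton_of_mem hzC
    have hzb : z ≠ b := by
      rintro rfl
      refine hb (M.closure_subset_closure ?_ hcl)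
      rintro e ⟨he, hne⟩
      exact hz e he hne
    have hzB : z ∈ B := by
      rcases hCs hzC with h | h
      · exact absurd h hzb
      · exact h
    set X : Finset E := (C \ {z}).toFinset with hXdef
    have hXm : ∀ e, e ∈ X ↔ e ∈ C ∧ e ≠ z := by
      intro e
      rw [hXdef, Set.mem_toFinset]
      exact Iff.rfl
    have hXlab : ∀ e ∈ X, ω e = Sum.inl 0 ∧ lt z e := fun e he =>
      ⟨hins e (hCs ((hXm e).1 he).1), hz e ((hXm e).1 he).1 ((hXm e).1 he).2⟩
    by_cases hex : ∃ k, 1 ≤ k ∧ k ≤ K ∧ ∃ X' ⊆ X, Bad M k ω lt z X'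
    · obtain ⟨k, hk, hkK, X', hX', hbad⟩ := hex
      left
      refine ⟨z, hzb, k, hk, hkK, X', (hB z hzB).2, ?_, fun e he => hXlab e (hX' he), hbad⟩
      by_contra hbX
      refine (hLB.2 z hzB).2 k hk hkK X' (fun e he => ⟨?_, (hXlab e (hX' he)).2⟩) hbad
      rcases hCs ((hXm e).1 (hX' he)).1 with rfl | h
      · exact absurd he hbX
      · exact h
    · right
      refine ⟨z, hzb, X, (hB z hzB).2, (hXm b).2 ⟨hbC, hzb.symm⟩, hXlab, ?_, ?_,
        (hLB.2 z hzB).1, fun k hk hkK X' hX' hbad => hex ⟨k, hk, hkK, X', hX', hbad⟩⟩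
      · refine M.closure_subset_closure ?_ hcl
        rintro e ⟨he, hne⟩
        exact ⟨hz e he hne, (hXm e).2 ⟨he, hne⟩⟩
      · have : insert z (X : Set E) = C := by
          rw [hXdef, Set.coe_toFinset, Set.insert_sdiff_singleton, Set.insert_eq_of_mem hzC]
        rw [this]
        exact hC

end

end Vale.Agent.P331.H489
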